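import Mathlib
import Crest.Prelude.Def_TreePotentials
import Crest.Agent.Helper30.AUCBasic

/-!
Row 125, package [B2a] (helper33): functional-analytic basics for the four tree-potential models of
`Def_TreePotentials` (statement S0168).

* `Amb m` : the ambient space `lp (fun _ : PotentialTest m => ℝ) ⊤`; evaluation at a test;
* `clm_eq_zero_of_coord`, `linear_relation` : linear relations between tests pass to the model space;
* `vInd s` : the indicator test of a vertex; `e m s`, `z m s` : coordinate and root-path vectors;
* separability, infinite-dimensionality and non-AUC-renormability of the model space.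
-/

set_option autoImplicit false

open Filter Topology
open Crest.AnalysisR Crest.AnalysisR.TreePotential Crest.Agent.Helper30
open scoped ENNReal

namespace Crest.Agent.Helper33

/-- the ambient space of model `m` -/
abbrev Amb (m : PotentialModel) : Type := lp (fun _ : PotentialTest m => ℝ) ⊤

/-- evaluation at a test, as a continuous linear functional on the ambient space -/
noncomputable def evA (m : PotentialModel) (f : PotentialTest m) : Amb m →L[ℝ] ℝ :=
  haveI : Fact ((1 : ℝ≥0∞) ≤ ⊤) := ⟨le_top⟩
  lp.evalCLM ℝ (fun _ : PotentialTest m => ℝ) ⊤ f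

theorem evA_apply (m : PotentialModel) (f : PotentialTest m) (x : Amb m) : evA m f x = x f := rfl

theorem abs_apply_le_norm (m : PotentialModel) (x : Amb m) (f : PotentialTest m) :
    |x f| ≤ ‖x‖ := by
  have h := lp.norm_apply_le_norm (p := ⊤) (by simp) x f
  simpa [Real.norm_eq_abs] using h

theorem apply_le_norm (m : PotentialModel) (x : Amb m) (f : PotentialTest m) :
    x f ≤ ‖x‖ := le_trans (le_abs_self _) (abs_apply_le_norm m x f)

theorem norm_le_of_forall_abs_le (m : PotentialModel) (x : Amb m) {C : ℝ} (hC : 0 ≤ C)
    (h : ∀ f, |x f| ≤ C) : ‖x‖ ≤ C :=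
  lp.norm_le_of_forall_le hC (fun f => by simpa [Real.norm_eq_abs] using h f)

theorem coordVector_apply (m : PotentialModel) (s : List ℕ) (f : PotentialTest m) :
    coordVector m s f = f.1 s := rfl

/-- A continuous linear functional on the ambient space that kills all coordinate vectors kills
the model space. -/
theorem clm_eq_zero_of_coord (m : PotentialModel) (L : Amb m →L[ℝ] ℝ)
    (h : ∀ s, L (coordVector m s) = 0) {x : Amb m} (hx : x ∈ modelSpace m) : L x = 0 := by
  have h1 : Submodule.span ℝ (Set.range (coordVector m)) ≤ LinearMap.ker (L : Amb m →ₗ[ℝ] ℝ) := by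
    rw [Submodule.span_le]
    rintro _ ⟨s, rfl⟩
    simpa using h s
  have h2 : modelSpace m ≤ LinearMap.ker (L : Amb m →ₗ[ℝ] ℝ) :=
    Submodule.topologicalClosure_minimal _ h1 L.isClosed_ker
  simpa using h2 hx

/-- Linear relation lemma: a pointwise linear relation between tests is respected by every
element of the model space. -/
theorem linear_relation (m : PotentialModel) {ι : Type*} (I : Finset ι) (c : ι → ℝ)
    (g : ι → PotentialTest m) (f₀ : PotentialTest m)
    (h : ∀ s, f₀.1 s = ∑ i ∈ I, c i * (g i).1 s) {x : Amb m} (hx : x ∈ modelSpace m) :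
    x f₀ = ∑ i ∈ I, c i * x (g i) := by
  have key := clm_eq_zero_of_coord m (evA m f₀ - ∑ i ∈ I, c i • evA m (g i)) (fun s => by
    simp only [sub_apply, FunLike.coe_sum, Finset.sum_apply,
      smul_apply, evA_apply, coordVector_apply, smul_eq_mul]
    rw [h s]; ring) hx
  simp only [sub_apply, FunLike.coe_sum, Finset.sum_apply,
    smul_apply, evA_apply, smul_eq_mul] at key
  linarith

/-- two-term special case: `f₀ = f₁ + c • f₂` -/
theorem linear_relation₂ (m : PotentialModel) (f₀ f₁ f₂ : PotentialTest m) (c : ℝ)
    (h : ∀ s, f₀.1 s = f₁.1 s + c * f₂.1 s) {x : Amb m} (hx : x ∈ modelSpace m) :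
    x f₀ = x f₁ + c * x f₂ := by
  have key := clm_eq_zero_of_coord m (evA m f₀ - evA m f₁ - c • evA m f₂) (fun s => by
    simp only [sub_apply, smul_apply, evA_apply,
      coordVector_apply, smul_eq_mul]
    rw [h s]; ring) hx
  simp only [sub_apply, smul_apply, evA_apply,
    smul_eq_mul] at key
  linarith

/-! ### indicator tests -/

/-- the indicator of the vertex `s` -/
def vInd (s : List ℕ) : List ℕ → ℝ := fun u => if u = s then 1 else 0

theorem pathPotential_vInd (s v : List ℕ) :
    pathPotential (vInd s) v = if s <:+ v then 1 else 0 := by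
  induction v with
  | nil =>
    simp only [pathPotential, vInd, List.suffix_nil]
    by_cases h : s = []
    · simp [h]
    · have h' : ¬ ([] : List ℕ) = s := fun h'' => h h''.symm
      simp [h, h']
  | cons a v ih =>
    simp only [pathPotential, ih, vInd, List.suffix_cons_iff]
    by_cases h1 : s = a :: v
    · have h2 : ¬ s <:+ v := by
        intro hs
        have := hs.length_le
        rw [h1] at this
        simp at this
      simp [h1]
      intro hs
      have := hs.length_le
      simp at this
    · have h1' : ¬ a :: v = s := fun h'' => h1 h''.symm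
      simp [h1, h1']

theorem sum_sq_vInd_le (s : List ℕ) (A : Finset (List ℕ)) : ∑ u ∈ A, vInd s u ^ 2 ≤ 1 := by
  have h : ∀ u, vInd s u ^ 2 = if u = s then 1 else 0 := by
    intro u; unfold vInd; split_ifs <;> simp
  simp only [h, Finset.sum_ite_eq']
  split_ifs <;> norm_num

theorem sum_children_eq_image (F : List ℕ → ℝ) (r : List ℕ) (A : Finset ℕ) :
    ∑ n ∈ A, F (n :: r) = ∑ u ∈ A.image (fun n => n :: r), F u := by
  rw [Finset.sum_image]
  intro a _ b _ hab
  simpa using hab

theorem isTreeAntichain_children (r : List ℕ) (A : Finset ℕ) :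
    IsTreeAntichain (A.image (fun n => n :: r)) := by
  intro u hu v hv huv hsuf
  rw [Finset.mem_image] at hu hv
  obtain ⟨a, -, rfl⟩ := hu
  obtain ⟨b, -, rfl⟩ := hv
  exact huv (hsuf.eq_of_length (by simp))

theorem isTest_vInd (m : PotentialModel) (s : List ℕ)
    (hs : m = PotentialModel.rootlessSibling → s ≠ []) : IsTest m (vInd s) := by
  refine ⟨fun v => ?_, ?_⟩
  · rw [pathPotential_vInd]; split_ifs <;> norm_num
  · cases m with
    | rootlessSibling =>
      refine ⟨?_, fun r A => ?_⟩
      · have := hs rfl
        simp only [vInd]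
        rw [if_neg (fun h => this h.symm)]
      · rw [sum_children_eq_image (fun u => vInd s u ^ 2)]
        exact sum_sq_vInd_le s _
    | rootedSibling =>
      intro r A
      rw [sum_children_eq_image (fun u => vInd s u ^ 2)]
      exact sum_sq_vInd_le s _
    | antichain =>
      refine ⟨?_, fun A _ => sum_sq_vInd_le s A⟩
      refine (Set.finite_singleton s).subset ?_
      intro u hu
      simp only [Function.mem_support, vInd] at hu
      by_contra h
      exact hu (if_neg h)
    | global =>
      intro A
      exact sum_sq_vInd_le s A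

/-- the indicator test of a vertex (non-root in the rootless model) -/
def indTest (m : PotentialModel) (s : List ℕ)
    (hs : m = PotentialModel.rootlessSibling → s ≠ []) : PotentialTest m :=
  ⟨vInd s, isTest_vInd m s hs⟩

theorem indTest_apply (m : PotentialModel) (s : List ℕ)
    (hs : m = PotentialModel.rootlessSibling → s ≠ []) (u : List ℕ) :
    (indTest m s hs).1 u = if u = s then 1 else 0 := rfl

/-- sibling square sums of a test are at most one, in every model -/
theorem IsTest.sum_children_sq_le {m : PotentialModel} {f : List ℕ → ℝ} (hf : IsTest m f)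
    (r : List ℕ) (A : Finset ℕ) : ∑ n ∈ A, f (n :: r) ^ 2 ≤ 1 := by
  cases m with
  | rootlessSibling => exact hf.2.2 r A
  | rootedSibling => exact hf.2 r A
  | antichain =>
    rw [sum_children_eq_image (fun u => f u ^ 2)]
    exact hf.2.2 _ (isTreeAntichain_children r A)
  | global =>
    rw [sum_children_eq_image (fun u => f u ^ 2)]
    exact hf.2 _

/-! ### coordinate vectors and root-path vectors in the model space -/

/-- the coordinate vector as an element of the model space -/
noncomputable def e (m : PotentialModel) (s : List ℕ) : ↥(modelSpace m) :=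
  ⟨coordVector m s, Submodule.le_topologicalClosure _ (Submodule.subset_span (Set.mem_range_self s))⟩

theorem e_apply (m : PotentialModel) (s : List ℕ) (f : PotentialTest m) :
    (e m s : Amb m) f = f.1 s := rfl

/-- the root-path vector `z_s = Σ_{u suffix of s} e_u` -/
noncomputable def z (m : PotentialModel) : List ℕ → ↥(modelSpace m)
  | [] => e m []
  | a :: v => z m v + e m (a :: v)

theorem z_apply (m : PotentialModel) (s : List ℕ) (f : PotentialTest m) :
    (z m s : Amb m) f = pathPotential f.1 s := by
  induction s with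
  | nil => rfl
  | cons a v ih =>
    simp only [z, pathPotential, Submodule.coe_add, lp.coeFn_add, Pi.add_apply, ih, e_apply]

theorem norm_z_le (m : PotentialModel) (s : List ℕ) : ‖z m s‖ ≤ 1 := by
  rw [Submodule.coe_norm]
  refine norm_le_of_forall_abs_le m _ zero_le_one (fun f => ?_)
  rw [z_apply]
  exact f.2.1 s

theorem z_cons_sub (m : PotentialModel) (a : ℕ) (v : List ℕ) :
    z m (a :: v) - z m v = e m (a :: v) := by
  simp [z]

theorem one_le_norm_e_cons (m : PotentialModel) (a : ℕ) (v : List ℕ) : 1 ≤ ‖e m (a :: v)‖ := by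
  rw [Submodule.coe_norm]
  have h := apply_le_norm m (e m (a :: v) : Amb m) (indTest m (a :: v) (fun _ => by simp))
  rw [e_apply, indTest_apply, if_pos rfl] at h
  exact h

theorem sign_sum_children_apply (m : PotentialModel) (r : List ℕ) (A : Finset ℕ) (σ : ℕ → ℝ)
    (f : PotentialTest m) :
    ((∑ k ∈ A, σ k • e m (k :: r) : ↥(modelSpace m)) : Amb m) f = ∑ k ∈ A, σ k * f.1 (k :: r) := by
  rw [Submodule.coe_sum, lp.coeFn_sum, Finset.sum_apply]
  refine Finset.sum_congr rfl (fun k _ => ?_)
  rw [Submodule.coe_smul, lp.coeFn_smul, Pi.smul_apply, e_apply, smul_eq_mul]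

theorem norm_sign_sum_children_sq_le (m : PotentialModel) (r : List ℕ) (A : Finset ℕ) (σ : ℕ → ℝ)
    (hσ : ∀ k, σ k = 1 ∨ σ k = -1) :
    ‖∑ k ∈ A, σ k • e m (k :: r)‖ ^ 2 ≤ 1 * A.card := by
  have hσ2 : ∀ k, σ k ^ 2 = 1 := by
    intro k; rcases hσ k with h | h <;> rw [h] <;> norm_num
  have hb : ‖∑ k ∈ A, σ k • e m (k :: r)‖ ≤ Real.sqrt A.card := by
    rw [Submodule.coe_norm]
    refine norm_le_of_forall_abs_le m _ (Real.sqrt_nonneg _) (fun f => ?_)
    rw [sign_sum_children_apply]
    apply Real.abs_le_sqrt
    have hcs := Finset.sum_mul_sq_le_sq_mul_sq A σ (fun k => f.1 (k :: r))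
    have h1 : ∑ k ∈ A, σ k ^ 2 = A.card := by
      simp [hσ2]
    have h2 := IsTest.sum_children_sq_le f.2 r A
    have h3 : (0 : ℝ) ≤ A.card := Nat.cast_nonneg _
    calc (∑ k ∈ A, σ k * f.1 (k :: r)) ^ 2
        ≤ (∑ k ∈ A, σ k ^ 2) * ∑ k ∈ A, f.1 (k :: r) ^ 2 := hcs
      _ ≤ (A.card : ℝ) * 1 := by
        rw [h1]; exact mul_le_mul_of_nonneg_left h2 h3
      _ = A.card := mul_one _
  calc ‖∑ k ∈ A, σ k • e m (k :: r)‖ ^ 2 ≤ Real.sqrt A.card ^ 2 :=
        pow_le_pow_left₀ (norm_nonneg _) hb 2
    _ = 1 * A.card := by rw [Real.sq_sqrt (Nat.cast_nonneg _), one_mul]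

theorem weaklyNull_children (m : PotentialModel) (r : List ℕ) :
    WeaklyNull (fun k : ℕ => e m (k :: r)) :=
  weaklyNull_of_sign_sums (C := 1) (fun A σ hσ => norm_sign_sum_children_sq_le m r A σ hσ)

theorem model_not_finiteDimensional (m : PotentialModel) :
    ¬ FiniteDimensional ℝ ↥(modelSpace m) :=
  not_finiteDimensional_of_weaklyNull (weaklyNull_children m []) one_pos
    (fun k => one_le_norm_e_cons m k [])

theorem model_separableSpace (m : PotentialModel) :
    TopologicalSpace.SeparableSpace ↥(modelSpace m) := by
  have h1 : TopologicalSpace.IsSeparable (Set.range (coordVector m)) :=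
    (Set.countable_range _).isSeparable
  have h2 : TopologicalSpace.IsSeparable ((modelSpace m : Submodule ℝ (Amb m)) : Set (Amb m)) := by
    have := (h1.span (R := ℝ)).closure
    simpa [modelSpace, Submodule.topologicalClosure_coe] using this
  exact h2.separableSpace

theorem model_no_auc (m : PotentialModel) {N : ↥(modelSpace m) → ℝ} (hN : IsEquivNormOn N) :
    ¬ IsAUCOn N := by
  refine no_auc_of_bush (z m) (norm_z_le m) one_pos (fun s => ⟨fun k => k :: s, ?_, fun k => ?_⟩) hN
  · have h : (fun k => z m (k :: s) - z m s) = fun k => e m (k :: s) := by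
      funext k; exact z_cons_sub m k s
    rw [h]
    exact weaklyNull_children m s
  · rw [z_cons_sub]
    exact one_le_norm_e_cons m k s

/-! ### the first and third conjunct of S0168 -/

theorem modelBanach_isSeparableInfiniteDim (m : PotentialModel) :
    (modelBanach m).IsSeparableInfiniteDim :=
  ⟨model_separableSpace m, model_not_finiteDimensional m⟩

theorem modelBanach_no_auc (m : PotentialModel) (N : (modelBanach m).X → ℝ)
    (hN : (modelBanach m).IsEquivNorm N) : ¬ (modelBanach m).IsAUC N :=
  model_no_auc m (N := N) hN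

end Crest.Agent.Helper33
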