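import Mathlib
import Crest.Prelude.Def_TreePotentials
import Crest.Agent.Helper30.AUCBasic
import Crest.Agent.Helper30.TreeCore
import Crest.Agent.Helper30.UMI
import Crest.Agent.Helper33.S0168Basic

/-!
Row 125, package [B2c] (helper33): the unnormalised midpoint inequality `UMI` for every
submodule of the model space of a tree-potential model (`umi_submodule`), on top of helper30's
`TreeCore` (clipped tests `gp`, `gm`) and `UMI`.
-/

set_option autoImplicit false

open Filter Topology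
open Crest.AnalysisR Crest.AnalysisR.TreePotential Crest.Agent.Helper30
open scoped ENNReal

namespace Crest.Agent.Helper33

variable {m : PotentialModel}

/-! ### negatives of tests, near-norming tests -/

theorem isTest_neg {f : List ℕ → ℝ} (hf : IsTest m f) : IsTest m (fun u => -f u) := by
  refine isTest_of_sq_le m hf hf (c := 1) (σ := 0) (by norm_num) (fun u => by simp) (fun s => ?_)
  have h : (fun u => -f u) = fun u => (-1 : ℝ) * f u := by funext u; ring
  rw [h, pathPotential_smul]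
  simpa using hf.1 s

/-- the negative of a test -/
def negTest (f : PotentialTest m) : PotentialTest m := ⟨fun u => -f.1 u, isTest_neg f.2⟩

theorem apply_negTest {x : Amb m} (hx : x ∈ modelSpace m) (f : PotentialTest m) :
    x (negTest f) = - x f := by
  have key := clm_eq_zero_of_coord m (evA m (negTest f) + evA m f) (fun s => by
    simp only [add_apply, evA_apply, coordVector_apply]
    show -f.1 s + f.1 s = 0
    ring) hx
  simp only [add_apply, evA_apply] at key
  linarith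

instance instNonemptyPotentialTest : Nonempty (PotentialTest m) :=
  ⟨indTest m [0] (fun _ => by simp)⟩

theorem exists_test_gt {x : Amb m} (hx : x ∈ modelSpace m) {δ : ℝ} (hδ : 0 < δ) :
    ∃ f : PotentialTest m, ‖x‖ - δ < x f := by
  obtain ⟨_, ⟨f, rfl⟩, hf, -⟩ := (lp.isLUB_norm x).exists_between (sub_lt_self ‖x‖ hδ)
  simp only [Real.norm_eq_abs] at hf
  rcases le_or_gt 0 (x f) with h | h
  · exact ⟨f, by rwa [abs_of_nonneg h] at hf⟩
  · exact ⟨negTest f, by rw [apply_negTest hx, ← abs_of_neg h]; exact hf⟩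

/-! ### total indicator tests and vanishing on a finite set -/

open Classical in
/-- total version of the indicator test (a junk test for the root in the rootless model) -/
noncomputable def it (m : PotentialModel) (s : List ℕ) : PotentialTest m :=
  if h : (m = PotentialModel.rootlessSibling → s ≠ []) then indTest m s h
  else indTest m [0] (fun _ => by simp)

theorem mul_it_apply {f : List ℕ → ℝ} (hf : IsTest m f) (s u : List ℕ) :
    f s * (it m s).1 u = if u = s then f s else 0 := by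
  by_cases h : (m = PotentialModel.rootlessSibling → s ≠ [])
  · rw [it, dif_pos h, indTest_apply]
    split_ifs <;> simp
  · have h' : m = PotentialModel.rootlessSibling ∧ s = [] := by
      by_contra hcon
      apply h
      intro hm hs
      exact hcon ⟨hm, hs⟩
    obtain ⟨rfl, rfl⟩ := h'
    have h0 : f [] = 0 := hf.2.1
    rw [h0]; simp

theorem indicator_eq_sum (S : Finset (List ℕ)) {f : List ℕ → ℝ} (hf : IsTest m f) (u : List ℕ) :
    (↑S : Set (List ℕ)).indicator f u = ∑ s ∈ S, f s * (it m s).1 u := by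
  simp only [mul_it_apply hf]
  rw [Finset.sum_ite_eq]
  simp [Set.indicator_apply]

/-- the `S`-part of a test, as a test -/
noncomputable def indPart (S : Finset (List ℕ)) (hS : SuffixClosed (↑S : Set (List ℕ)))
    (f : PotentialTest m) : PotentialTest m :=
  ⟨(↑S : Set (List ℕ)).indicator f.1, isTest_indicator hS f.2⟩

theorem apply_indPart_eq_zero {S : Finset (List ℕ)} (hS : SuffixClosed (↑S : Set (List ℕ)))
    {y : Amb m} (hy : y ∈ modelSpace m) (hyS : ∀ s ∈ S, y (it m s) = 0) (f : PotentialTest m) :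
    y (indPart S hS f) = 0 := by
  rw [linear_relation m S (fun s => f.1 s) (fun s => it m s) (indPart S hS f)
    (fun u => indicator_eq_sum S f.2 u) hy]
  exact Finset.sum_eq_zero (fun s hs => by rw [hyS s hs, mul_zero])

/-! ### the two combined tests -/

/-- the `+` test `c · fx|_S + σ · gp` -/
noncomputable def fplus (S : Finset (List ℕ)) (hS : SuffixClosed (↑S : Set (List ℕ)))
    (fx fy : PotentialTest m) (c σ : ℝ) (hc0 : 0 ≤ c) (hσ0 : 0 ≤ σ) (hσ : σ ≤ 1 / 2)
    (hcσ : c ^ 2 + σ ^ 2 ≤ 1) : PotentialTest m :=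
  ⟨fun u => c * (↑S : Set (List ℕ)).indicator fx.1 u + σ * gp (↑S : Set (List ℕ)) fx.1 fy.1 u,
    isTest_fplus hS fx.2 fy.2 hc0 hσ0 hσ hcσ⟩

/-- the `-` test `c · fx|_S + σ · gm` -/
noncomputable def fminus (S : Finset (List ℕ)) (hS : SuffixClosed (↑S : Set (List ℕ)))
    (fx fy : PotentialTest m) (c σ : ℝ) (hc0 : 0 ≤ c) (hσ0 : 0 ≤ σ) (hσ : σ ≤ 1 / 2)
    (hcσ : c ^ 2 + σ ^ 2 ≤ 1) : PotentialTest m :=
  ⟨fun u => c * (↑S : Set (List ℕ)).indicator fx.1 u + σ * gm (↑S : Set (List ℕ)) fx.1 fy.1 u,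
    isTest_fminus hS fx.2 fy.2 hc0 hσ0 hσ hcσ⟩

theorem apply_fplus_sub_fminus {S : Finset (List ℕ)} (hS : SuffixClosed (↑S : Set (List ℕ)))
    (fx fy : PotentialTest m) {c σ : ℝ} (hc0 : 0 ≤ c) (hσ0 : 0 ≤ σ) (hσ : σ ≤ 1 / 2)
    (hcσ : c ^ 2 + σ ^ 2 ≤ 1) {y : Amb m} (hy : y ∈ modelSpace m)
    (hyS : ∀ s ∈ S, y (it m s) = 0) :
    y (fplus S hS fx fy c σ hc0 hσ0 hσ hcσ) - y (fminus S hS fx fy c σ hc0 hσ0 hσ hcσ)
      = σ * y fy := by
  have key := clm_eq_zero_of_coord m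
    (evA m (fplus S hS fx fy c σ hc0 hσ0 hσ hcσ) - evA m (fminus S hS fx fy c σ hc0 hσ0 hσ hcσ)
      - σ • evA m fy + σ • evA m (indPart S hS fy)) (fun s => by
    simp only [add_apply, sub_apply, smul_apply, evA_apply, coordVector_apply, smul_eq_mul]
    simp only [fplus, fminus, indPart]
    have := gp_sub_gm hS fx.1 fy.1 s
    linear_combination σ * this) hy
  have h0 := apply_indPart_eq_zero hS hy hyS fy
  simp only [add_apply, sub_apply, smul_apply, evA_apply, smul_eq_mul] at key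
  rw [h0] at key
  linarith

theorem apply_fplus_of_rep {S : Finset (List ℕ)} (hS : SuffixClosed (↑S : Set (List ℕ)))
    (fx fy : PotentialTest m) {c σ : ℝ} (hc0 : 0 ≤ c) (hσ0 : 0 ≤ σ) (hσ : σ ≤ 1 / 2)
    (hcσ : c ^ 2 + σ ^ 2 ≤ 1) {x₀ : Amb m} {T : Finset (List ℕ)} {cf : List ℕ → ℝ}
    (hrep : ∀ f : PotentialTest m, x₀ f = ∑ s ∈ T, cf s * f.1 s) (hTS : T ⊆ S) :
    x₀ (fplus S hS fx fy c σ hc0 hσ0 hσ hcσ) = c * x₀ fx := by
  rw [hrep, hrep, Finset.mul_sum]
  refine Finset.sum_congr rfl (fun s hs => ?_)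
  have hsS : s ∈ (↑S : Set (List ℕ)) := Finset.mem_coe.mpr (hTS hs)
  simp only [fplus]
  rw [Set.indicator_of_mem hsS, gp_eq_zero_of_mem hS _ _ hsS]; ring

theorem apply_fminus_of_rep {S : Finset (List ℕ)} (hS : SuffixClosed (↑S : Set (List ℕ)))
    (fx fy : PotentialTest m) {c σ : ℝ} (hc0 : 0 ≤ c) (hσ0 : 0 ≤ σ) (hσ : σ ≤ 1 / 2)
    (hcσ : c ^ 2 + σ ^ 2 ≤ 1) {x₀ : Amb m} {T : Finset (List ℕ)} {cf : List ℕ → ℝ}
    (hrep : ∀ f : PotentialTest m, x₀ f = ∑ s ∈ T, cf s * f.1 s) (hTS : T ⊆ S) :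
    x₀ (fminus S hS fx fy c σ hc0 hσ0 hσ hcσ) = c * x₀ fx := by
  rw [hrep, hrep, Finset.mul_sum]
  refine Finset.sum_congr rfl (fun s hs => ?_)
  have hsS : s ∈ (↑S : Set (List ℕ)) := Finset.mem_coe.mpr (hTS hs)
  simp only [fminus]
  rw [Set.indicator_of_mem hsS, gm_eq_zero_of_mem hS _ _ hsS]; ring

/-- elements of the span of the coordinate vectors are finitely supported arrays -/
theorem exists_rep_of_mem_span {x₀ : Amb m}
    (h : x₀ ∈ Submodule.span ℝ (Set.range (coordVector m))) :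
    ∃ (T : Finset (List ℕ)) (cf : List ℕ → ℝ),
      ∀ f : PotentialTest m, x₀ f = ∑ s ∈ T, cf s * f.1 s := by
  obtain ⟨c, rfl⟩ := Finsupp.mem_span_range_iff_exists_finsupp.mp h
  refine ⟨c.support, c, fun f => ?_⟩
  rw [Finsupp.sum, lp.coeFn_sum, Finset.sum_apply]
  refine Finset.sum_congr rfl (fun s _ => ?_)
  rw [lp.coeFn_smul, Pi.smul_apply, coordVector_apply, smul_eq_mul]

/-! ### the numerical optimisation -/

theorem umi_numeric {A Bn PQ δ : ℝ} (hA : 0 ≤ A) (hB : 0 ≤ Bn) (hδ : 0 < δ)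
    (hcore : ∀ c σ : ℝ, 0 ≤ c → 0 ≤ σ → σ ≤ 1 / 2 → c ^ 2 + σ ^ 2 ≤ 1 →
      2 * c * A + σ * Bn - 7 * δ ≤ PQ)
    (htriv : 2 * Bn ≤ PQ) :
    2 * Real.sqrt (A ^ 2 + Bn ^ 2 / 4) - 7 * δ ≤ PQ := by
  have hR0 : 0 ≤ A ^ 2 + Bn ^ 2 / 4 := by positivity
  set R := Real.sqrt (A ^ 2 + Bn ^ 2 / 4) with hRdef
  have hRnn : 0 ≤ R := Real.sqrt_nonneg _
  have hRsq : R ^ 2 = A ^ 2 + Bn ^ 2 / 4 := Real.sq_sqrt hR0
  rcases le_or_gt (3 * Bn ^ 2) (4 * A ^ 2) with hcase | hcase
  · rcases eq_or_lt_of_le hRnn with hR | hR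
    · rw [← hR]
      linarith
    · have hBR : Bn ≤ R := by
        apply le_of_sq_le_sq _ hRnn  |>.trans_eq rfl
        rw [hRsq]; linarith
      have h := hcore (A / R) (Bn / (2 * R)) (div_nonneg hA hRnn) (div_nonneg hB (by positivity))
        (by rw [div_le_iff₀ (by positivity)]; linarith)
        (by
          rw [div_pow, div_pow, mul_pow]
          have : A ^ 2 / R ^ 2 + Bn ^ 2 / (2 ^ 2 * R ^ 2) = (A ^ 2 + Bn ^ 2 / 4) / R ^ 2 := by
            field_simp; ring
          rw [this, ← hRsq, div_self (by positivity)])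
      have e : 2 * (A / R) * A + Bn / (2 * R) * Bn = 2 * R := by
        have : 2 * (A / R) * A + Bn / (2 * R) * Bn = 2 * (A ^ 2 + Bn ^ 2 / 4) / R := by
          field_simp; ring
        rw [this, ← hRsq]
        field_simp
      linarith
  · have hRB : R ≤ Bn := by
      apply le_of_sq_le_sq _ hB |>.trans_eq rfl
      rw [hRsq]; linarith
    linarith

/-! ### the main theorem -/

/-- The unnormalised midpoint inequality for every submodule of the model space. -/
theorem umi_submodule (m : PotentialModel) (B : Submodule ℝ (lp (fun _ : PotentialTest m => ℝ) ⊤))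
    (hB : B ≤ modelSpace m) : UMI ↥B := by
  intro x ε hε
  set δ : ℝ := ε / 16 with hδdef
  have hδ : 0 < δ := by positivity
  have hxm : (x : Amb m) ∈ modelSpace m := hB x.2
  have hcl : (x : Amb m) ∈ closure
      ((Submodule.span ℝ (Set.range (coordVector m)) : Submodule ℝ (Amb m)) : Set (Amb m)) := by
    have h := hxm
    rw [modelSpace, ← SetLike.mem_coe, Submodule.topologicalClosure_coe] at h
    exact h
  obtain ⟨x₀, hx₀, hdist⟩ := Metric.mem_closure_iff.mp hcl δ hδ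
  obtain ⟨T, cf, hrep⟩ := exists_rep_of_mem_span hx₀
  have hS : SuffixClosed (↑(sclosure T) : Set (List ℕ)) := suffixClosed_sclosure T
  have hTS : T ⊆ sclosure T := subset_sclosure T
  let φ : ↥(sclosure T) → ↥B →L[ℝ] ℝ := fun i => (evA m (it m i.1)).comp B.subtypeL
  refine ⟨{y : ↥B | ∀ i : ↥(sclosure T), φ i y = 0}, isCofSet_forall_eq_zero φ, ?_⟩
  intro y hy
  have hym : (y : Amb m) ∈ modelSpace m := hB y.2
  have hyS : ∀ s ∈ sclosure T, (y : Amb m) (it m s) = 0 := fun s hs => hy ⟨s, hs⟩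
  obtain ⟨fx, hfx⟩ := exists_test_gt hxm hδ
  obtain ⟨fy, hfy⟩ := exists_test_gt hym hδ
  have hdist' : ∀ f : PotentialTest m, |(x : Amb m) f - x₀ f| ≤ δ := by
    intro f
    have h1 := abs_apply_le_norm m ((x : Amb m) - x₀) f
    rw [lp.coeFn_sub, Pi.sub_apply] at h1
    rw [dist_eq_norm] at hdist
    linarith
  have hnx : ‖x‖ = ‖(x : Amb m)‖ := rfl
  have hny : ‖y‖ = ‖(y : Amb m)‖ := rfl
  have key : 2 * Real.sqrt (‖x‖ ^ 2 + ‖y‖ ^ 2 / 4) - 7 * δ ≤ ‖x + y‖ + ‖x - y‖ := by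
    apply umi_numeric (norm_nonneg x) (norm_nonneg y) hδ
    · intro c σ hc0 hσ0 hσ hcσ
      have hc1 : c ≤ 1 := by nlinarith [sq_nonneg σ]
      have h1 : (x : Amb m) (fplus _ hS fx fy c σ hc0 hσ0 hσ hcσ)
          + (y : Amb m) (fplus _ hS fx fy c σ hc0 hσ0 hσ hcσ) ≤ ‖x + y‖ := by
        have h := apply_le_norm m ((x + y : ↥B) : Amb m) (fplus _ hS fx fy c σ hc0 hσ0 hσ hcσ)
        rw [Submodule.coe_add, lp.coeFn_add, Pi.add_apply] at h
        exact h
      have h2 : (x : Amb m) (fminus _ hS fx fy c σ hc0 hσ0 hσ hcσ)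
          - (y : Amb m) (fminus _ hS fx fy c σ hc0 hσ0 hσ hcσ) ≤ ‖x - y‖ := by
        have h := apply_le_norm m ((x - y : ↥B) : Amb m) (fminus _ hS fx fy c σ hc0 hσ0 hσ hcσ)
        rw [Submodule.coe_sub, lp.coeFn_sub, Pi.sub_apply] at h
        exact h
      have h3 := apply_fplus_sub_fminus hS fx fy hc0 hσ0 hσ hcσ hym hyS
      have h4 := apply_fplus_of_rep hS fx fy hc0 hσ0 hσ hcσ hrep hTS
      have h5 := apply_fminus_of_rep hS fx fy hc0 hσ0 hσ hcσ hrep hTS
      have h6 := abs_le.mp (hdist' (fplus _ hS fx fy c σ hc0 hσ0 hσ hcσ))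
      have h7 := abs_le.mp (hdist' (fminus _ hS fx fy c σ hc0 hσ0 hσ hcσ))
      have h8 := abs_le.mp (hdist' fx)
      rw [← hnx] at hfx
      rw [← hny] at hfy
      have hA1 : c * (‖x‖ - 2 * δ) ≤ c * x₀ fx :=
        mul_le_mul_of_nonneg_left (by linarith [h8.1, h8.2]) hc0
      have hA2 : c * (2 * δ) ≤ 1 * (2 * δ) :=
        mul_le_mul_of_nonneg_right hc1 (by linarith)
      have hB1 : σ * (‖y‖ - δ) ≤ σ * (y : Amb m) fy :=
        mul_le_mul_of_nonneg_left (by linarith) hσ0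
      have hB2 : σ * δ ≤ 1 / 2 * δ := mul_le_mul_of_nonneg_right hσ (by linarith)
      nlinarith [h1, h2, h3, h4, h5, h6.1, h6.2, h7.1, h7.2, hA1, hA2, hB1, hB2]
    · have h : ‖(x + y) - (x - y)‖ ≤ ‖x + y‖ + ‖x - y‖ := norm_sub_le _ _
      have e : (x + y) - (x - y) = (2 : ℝ) • y := by rw [two_smul]; abel
      rw [e, norm_smul] at h
      simpa using h
  linarith

end Crest.Agent.Helper33
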